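import Vale.Agent.P216.Bdl.B1
import Mathlib.Analysis.Subadditive

/-!
Convex sequences of lengths and periodic flats: groups which are not a finite union of conjugates
of cyclic subgroups.
-/

namespace Vale.Agent.P216.R2.H842

open Set Vale.Agent.P216

/-- A strictly convex sequence with bounded increments is not contained in a finite union of
cyclic subgroups of `ℝ`. -/
theorem not_lattices {F : Set ℝ} (hF : F.Finite) (f : ℕ → ℝ)
    (hcx : ∀ n, f (n + 1) - f n < f (n + 2) - f (n + 1)) (C : ℝ)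
    (hC : ∀ n, f (n + 1) - f n ≤ C) (h : ∀ n, ∃ t ∈ F, ∃ k : ℤ, f n = k * t) : False := by
  classical
  choose t ht k hk using h
  -- the increments
  have hD : StrictMono fun n => f (n + 1) - f n := strictMono_nat_of_lt_succ hcx
  -- the increments over distance `d + 1`
  have hDd : ∀ d : ℕ, StrictMono fun n => f (n + (d + 1)) - f n := by
    intro d
    induction d with
    | zero => exact hD
    | succ d ih =>
      intro a b hab
      have h1 : f (a + (d + 1)) - f a < f (b + (d + 1)) - f b := ih hab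
      have h2 := hD (show a + (d + 1) < b + (d + 1) by omega)
      simp only at h2
      show f (a + (d + 1) + 1) - f a < f (b + (d + 1) + 1) - f b
      linarith
  have hbd : ∀ d : ℕ, ∀ n, f (n + (d + 1)) - f n ≤ (d + 1) * C := by
    intro d
    induction d with
    | zero => intro n; simpa using hC n
    | succ d ih =>
      intro n
      have h1 := ih n
      have h2 := hC (n + (d + 1))
      push_cast
      show f (n + (d + 1) + 1) - f n ≤ _
      linarith
  -- pigeonhole in windows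
  obtain ⟨m, hm⟩ : ∃ m : ℕ, m = hF.toFinset.card := ⟨_, rfl⟩
  have hwin : ∀ n : ℕ, ∃ i d : ℕ, i < m + 1 ∧ d < m + 1 ∧ t (n + i) = t (n + i + (d + 1)) := by
    intro n
    obtain ⟨i, hi, j, hj, hij, he⟩ := Finset.exists_ne_map_eq_of_card_lt_of_maps_to
      (s := Finset.range (m + 1)) (t := hF.toFinset) (f := fun i => t (n + i))
      (by rw [Finset.card_range]; omega) (fun i _ => hF.mem_toFinset.2 (ht _))
    rw [Finset.mem_range] at hi hj
    rcases lt_or_gt_of_ne hij with hlt | hlt
    · refine ⟨i, j - i - 1, hi, by omega, ?_⟩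
      rw [show n + i + (j - i - 1 + 1) = n + j by omega]
      exact he
    · refine ⟨j, i - j - 1, hj, by omega, ?_⟩
      rw [show n + j + (i - j - 1 + 1) = n + i by omega]
      exact he.symm
  choose i d hi hd hid using hwin
  -- infinitely many `n` with the same data
  let φ : ℕ → Fin (m + 1) × Fin (m + 1) × hF.toFinset := fun n =>
    (⟨i n, hi n⟩, ⟨d n, hd n⟩, ⟨t (n + i n), hF.mem_toFinset.2 (ht _)⟩)
  obtain ⟨⟨i₀, d₀, t₀⟩, hinf⟩ := Finite.exists_infinite_fiber φ
  have hinf' : (φ ⁻¹' {(i₀, d₀, t₀)}).Infinite := Set.infinite_coe_iff.1 hinf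
  have key : ∀ n ∈ φ ⁻¹' {(i₀, d₀, t₀)}, ∃ l : ℤ,
      f (n + i₀ + ((d₀ : ℕ) + 1)) - f (n + i₀) = l * (t₀ : ℝ) := by
    intro n hn
    have hn' : φ n = (i₀, d₀, t₀) := hn
    simp only [φ, Prod.mk.injEq] at hn'
    obtain ⟨h1, h2, h3⟩ := hn'
    have e1 : i n = (i₀ : ℕ) := congrArg Fin.val h1
    have e2 : d n = (d₀ : ℕ) := congrArg Fin.val h2
    have e3 : t (n + i n) = (t₀ : ℝ) := congrArg Subtype.val h3
    have h4 := hid n
    rw [e1, e2] at h4
    rw [e1] at e3
    refine ⟨k (n + i₀ + ((d₀ : ℕ) + 1)) - k (n + i₀), ?_⟩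
    rw [hk (n + i₀ + ((d₀ : ℕ) + 1)), hk (n + i₀), ← h4, e3]
    push_cast
    ring
  -- the limit
  have hmono := hDd d₀
  have hbdd : BddAbove (Set.range fun n => f (n + ((d₀ : ℕ) + 1)) - f n) := by
    refine ⟨((d₀ : ℕ) + 1) * C, ?_⟩
    rintro _ ⟨n, rfl⟩
    exact hbd d₀ n
  have hlim := tendsto_atTop_ciSup hmono.monotone hbdd
  obtain ⟨L, hL⟩ : ∃ L : ℝ, L = ⨆ n, (f (n + ((d₀ : ℕ) + 1)) - f n) := ⟨_, rfl⟩
  rw [← hL] at hlim
  by_cases h0 : (t₀ : ℝ) = 0
  · obtain ⟨n, hn⟩ := hinf'.nonempty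
    obtain ⟨n', hn', hlt⟩ := hinf'.exists_gt n
    obtain ⟨l, hl⟩ := key n hn
    obtain ⟨l', hl'⟩ := key n' hn'
    have := hmono (show n + i₀ < n' + i₀ by omega)
    simp only at this
    rw [hl, hl', h0] at this
    simp at this
  · have hδ : 0 < |(t₀ : ℝ)| := abs_pos.2 h0
    obtain ⟨N, hN⟩ := Metric.tendsto_atTop.1 hlim (|(t₀ : ℝ)| / 2) (by positivity)
    obtain ⟨n, hn, hgt⟩ := hinf'.exists_gt N
    obtain ⟨n', hn', hlt⟩ := hinf'.exists_gt n
    obtain ⟨l, hl⟩ := key n hn
    obtain ⟨l', hl'⟩ := key n' hn'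
    have h1 := hN (n + i₀) (by omega)
    have h2 := hN (n' + i₀) (by omega)
    have h3 := hmono (show n + i₀ < n' + i₀ by omega)
    simp only at h1 h2 h3
    rw [Real.dist_eq] at h1 h2
    rw [hl] at h1 h3
    rw [hl'] at h2 h3
    rw [abs_lt] at h1 h2
    have h4 : 0 < ((l' - l : ℤ) : ℝ) * (t₀ : ℝ) := by push_cast; linarith
    have h5 : ((l' - l : ℤ) : ℝ) * (t₀ : ℝ) < |(t₀ : ℝ)| := by push_cast; linarith
    have h6 : |((l' - l : ℤ) : ℝ)| * |(t₀ : ℝ)| < 1 * |(t₀ : ℝ)| := by
      rw [← abs_mul, abs_of_pos h4, one_mul]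
      exact h5
    have h7 : |((l' - l : ℤ) : ℝ)| < 1 := lt_of_mul_lt_mul_right h6 hδ.le
    have h8 : |l' - l| < 1 := by exact_mod_cast h7
    have h9 : l' - l = 0 := Int.abs_lt_one_iff.1 h8
    rw [h9] at h4
    simp at h4

/-- A finite union of conjugates of cyclic groups has no class function `τ` with
`τ (g ^ k) = |k| τ g` and a sequence on which `τ` is strictly convex with bounded increments. -/
theorem not_convex {G : Type*} [Group G] (H : FinitelyCyclicallyCovered G) (τ : G → ℝ)
    (hconj : ∀ x y, τ (x * y * x⁻¹) = τ y) (hpow : ∀ x (n : ℤ), τ (x ^ n) = |(n : ℝ)| * τ x)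
    (w : ℕ → G) (hcx : ∀ n, τ (w (n + 1)) - τ (w n) < τ (w (n + 2)) - τ (w (n + 1))) (C : ℝ)
    (hC : ∀ n, τ (w (n + 1)) - τ (w n) ≤ C) : False := by
  obtain ⟨F, hF, hcov⟩ := H
  refine not_lattices (hF.image τ) (fun n => τ (w n)) hcx C hC fun n => ?_
  obtain ⟨a, ha, k, hk⟩ := hcov (w n)
  obtain ⟨c, hc⟩ := isConj_iff.1 hk
  refine ⟨τ a, Set.mem_image_of_mem τ ha, |k|, ?_⟩
  show τ (w n) = _
  rw [← hconj c (w n), hc, hpow]
  push_cast
  rfl

/-- Strict convexity of `n ↦ ‖n u + v‖`. -/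
theorem norm_strict {E : Type*} [NormedAddCommGroup E] [NormedSpace ℝ E] [StrictConvexSpace ℝ E]
    {u v : E} (huv : LinearIndependent ℝ ![u, v]) (n : ℕ) :
    ‖(n + 1) • u + v‖ - ‖n • u + v‖ < ‖(n + 2) • u + v‖ - ‖(n + 1) • u + v‖ := by
  have h2 := LinearIndependent.pair_iff.1 huv
  have h1 : ‖(n • u + v) + ((n + 2) • u + v)‖ < ‖n • u + v‖ + ‖(n + 2) • u + v‖ := by
    apply norm_add_lt_of_not_sameRay
    intro h
    have hx : n • u + v ≠ 0 := by
      intro h0
      have := h2 n 1 (by rw [one_smul, Nat.cast_smul_eq_nsmul]; exact h0)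
      exact one_ne_zero this.2
    obtain ⟨r, hr, hr2⟩ := h.exists_nonneg_left hx
    have h3 : (r * n - (n + 2)) • u + (r - 1) • v = 0 := by
      have h4 : r • (n • u + v) = (n + 2) • u + v := hr2
      rw [← Nat.cast_smul_eq_nsmul ℝ, ← Nat.cast_smul_eq_nsmul ℝ] at h4
      push_cast at h4
      have h5 : (r * n - (n + 2)) • u + (r - 1) • v =
          r • ((n : ℝ) • u + v) - (((n : ℝ) + 2) • u + v) := by module
      rw [h5, h4, sub_self]
    obtain ⟨h5, h6⟩ := h2 _ _ h3
    have h7 : r = 1 := by linarith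
    rw [h7] at h5
    linarith
  have h3 : (n • u + v) + ((n + 2) • u + v) = (2 : ℝ) • ((n + 1) • u + v) := by
    rw [← Nat.cast_smul_eq_nsmul ℝ, ← Nat.cast_smul_eq_nsmul ℝ, ← Nat.cast_smul_eq_nsmul ℝ]
    push_cast
    module
  rw [h3, norm_smul] at h1
  norm_num at h1
  linarith

/-- No periodic flat. -/
theorem not_flat {G : Type*} [Group G] (H : FinitelyCyclicallyCovered G) (τ : G → ℝ)
    (hconj : ∀ x y, τ (x * y * x⁻¹) = τ y) (hpow : ∀ x (n : ℤ), τ (x ^ n) = |(n : ℝ)| * τ x)
    {E : Type*} [NormedAddCommGroup E] [NormedSpace ℝ E] [StrictConvexSpace ℝ E]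
    {u v : E} (huv : LinearIndependent ℝ ![u, v]) (x y : G)
    (h : ∀ n : ℕ, τ (x ^ n * y) = ‖n • u + v‖) : False := by
  refine not_convex H τ hconj hpow (fun n => x ^ n * y) (fun n => ?_) ‖u‖ fun n => ?_
  · simp only [h]
    exact norm_strict huv n
  · simp only [h]
    have h1 : (n + 1) • u + v = (n • u + v) + u := by
      rw [add_smul, one_smul]; abel
    rw [h1]
    have := norm_add_le (n • u + v) u
    linarith

section Action

open Filter Topology

variable {G Y : Type*} [Group G] [PseudoMetricSpace Y] [MulAction G Y] [IsIsometricSMul G Y]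

theorem dist_pow_subadditive (p : Y) (g : G) : Subadditive fun n => dist p (g ^ n • p) := by
  intro m n
  calc dist p (g ^ (m + n) • p) ≤ dist p (g ^ m • p) + dist (g ^ m • p) (g ^ (m + n) • p) :=
        dist_triangle _ _ _
    _ = dist p (g ^ m • p) + dist p (g ^ n • p) := by
        rw [pow_add, mul_smul, dist_smul]

/-- The stable length of an isometric action, seen from the point `p`. -/
noncomputable def stab (p : Y) (g : G) : ℝ := (dist_pow_subadditive p g).lim

theorem tendsto_stab (p : Y) (g : G) :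
    Tendsto (fun n : ℕ => dist p (g ^ n • p) / n) atTop (𝓝 (stab p g)) := by
  refine (dist_pow_subadditive p g).tendsto_lim ⟨0, ?_⟩
  rintro _ ⟨n, rfl⟩
  positivity

theorem stab_conj (p : Y) (x g : G) : stab p (x * g * x⁻¹) = stab p g := by
  refine tendsto_nhds_unique (tendsto_stab p (x * g * x⁻¹)) ?_
  have h1 := tendsto_stab p g
  have h2 : Tendsto (fun n : ℕ => (dist p ((x * g * x⁻¹) ^ n • p) - dist p (g ^ n • p)) / n)
      atTop (𝓝 0) := by
    refine squeeze_zero_norm (a := fun n : ℕ => (2 * dist p (x • p)) / n) (fun n => ?_)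
      (tendsto_const_div_atTop_nhds_zero_nat _)
    rw [norm_div, Real.norm_natCast, Real.norm_eq_abs]
    gcongr
    have h3 : dist p ((x * g * x⁻¹) ^ n • p) = dist (x⁻¹ • p) (g ^ n • (x⁻¹ • p)) := by
      rw [conj_pow, ← dist_smul x⁻¹ p, mul_assoc, mul_smul, inv_smul_smul, mul_smul]
    have h4 : dist (x⁻¹ • p) p = dist p (x • p) := by
      rw [← dist_smul x (x⁻¹ • p) p, smul_inv_smul]
    have h5 : dist (g ^ n • (x⁻¹ • p)) (g ^ n • p) = dist p (x • p) := by
      rw [dist_smul, h4]
    rw [h3, abs_le]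
    constructor
    · have := dist_triangle4 p (x⁻¹ • p) (g ^ n • (x⁻¹ • p)) (g ^ n • p)
      rw [dist_comm p (x⁻¹ • p)] at this
      linarith
    · have := dist_triangle4 (x⁻¹ • p) p (g ^ n • p) (g ^ n • (x⁻¹ • p))
      rw [dist_comm (g ^ n • p)] at this
      linarith
  have h6 := h2.add h1
  rw [zero_add] at h6
  refine h6.congr fun n => ?_
  rw [← add_div]
  congr 1
  ring

theorem stab_pow (p : Y) (g : G) (k : ℕ) : stab p (g ^ k) = k * stab p g := by
  rcases Nat.eq_zero_or_pos k with rfl | hk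
  · refine tendsto_nhds_unique (tendsto_stab p (g ^ 0)) ?_
    simp
  · refine tendsto_nhds_unique (tendsto_stab p (g ^ k)) ?_
    have h1 := (tendsto_stab p g).comp (tendsto_id.const_mul_atTop' hk : Tendsto (fun n : ℕ => k * n) atTop atTop)
    have h2 := h1.const_mul (k : ℝ)
    refine h2.congr fun n => ?_
    have hk' : (k : ℝ) ≠ 0 := by positivity
    simp only [Function.comp_apply]
    rw [← pow_mul]
    push_cast
    rcases Nat.eq_zero_or_pos n with rfl | hn
    · simp
    · field_simp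

theorem stab_inv (p : Y) (g : G) : stab p g⁻¹ = stab p g := by
  refine tendsto_nhds_unique (tendsto_stab p g⁻¹) ((tendsto_stab p g).congr fun n => ?_)
  rw [inv_pow, ← dist_smul (g ^ n) p ((g ^ n)⁻¹ • p), smul_inv_smul, dist_comm]

theorem stab_zpow (p : Y) (g : G) (n : ℤ) : stab p (g ^ n) = |(n : ℝ)| * stab p g := by
  obtain ⟨k, rfl | rfl⟩ := n.eq_nat_or_neg
  · rw [zpow_natCast, stab_pow]
    simp
  · rw [zpow_neg, zpow_natCast, stab_inv, stab_pow]
    simp

/-- A group which is a finite union of conjugates of cyclic groups has no isometric action on a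
metric space with a doubly periodic isometric copy of a strictly convex normed space. -/
theorem not_periodic_flat (H : FinitelyCyclicallyCovered G) {E : Type*} [NormedAddCommGroup E]
    [NormedSpace ℝ E] [StrictConvexSpace ℝ E] (f : E → Y) (hf : Isometry f) {u v : E}
    (huv : LinearIndependent ℝ ![u, v]) (x y : G) (hx : ∀ e, x • f e = f (e + u))
    (hy : ∀ e, y • f e = f (e + v)) : False := by
  refine not_flat H (stab (f 0)) (stab_conj _) (stab_zpow _) huv x y fun n => ?_
  have h1 : ∀ (n : ℕ) (e : E), x ^ n • f e = f (e + n • u) := by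
    intro n
    induction n with
    | zero => intro e; simp
    | succ n ih =>
      intro e
      rw [pow_succ', mul_smul, ih, hx]
      congr 1
      rw [add_smul, one_smul, add_assoc]
  have h2 : ∀ e, (x ^ n * y) • f e = f (e + (n • u + v)) := by
    intro e
    rw [mul_smul, hy, h1]
    congr 1
    abel
  have h3 : ∀ (k : ℕ) (e : E), (x ^ n * y) ^ k • f e = f (e + k • (n • u + v)) := by
    intro k
    induction k with
    | zero => intro e; simp
    | succ k ih =>
      intro e
      rw [pow_succ', mul_smul, ih, h2]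
      congr 1
      rw [add_smul k, one_smul, add_assoc]
  refine tendsto_nhds_unique (tendsto_stab (f 0) (x ^ n * y)) ?_
  refine tendsto_const_nhds.congr' ?_
  filter_upwards [eventually_gt_atTop 0] with k hk
  have hk' : (k : ℝ) ≠ 0 := by positivity
  rw [h3, hf.dist_eq, zero_add, dist_zero_left, ← Nat.cast_smul_eq_nsmul ℝ k (n • u + v),
    norm_smul, Real.norm_natCast]
  field_simp

end Action

end Vale.Agent.P216.R2.H842
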