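import Vale.Agent.P216.R2.H842.Convex
import Vale.Agent.P216.R2.H983.Crit

/-!
P216: groups with a convex sequence of lengths or with a periodic flat are not covered by the
conjugates of finitely many cyclic subgroups.
-/

namespace Vale.Agent.P216.R2.H842.C

open Vale.Agent.P216.H983 Filter Topology

theorem not_convex {G : Type} [Group G] {F : Finset G} (hF : Cov F) (h : HasConvexSequence G) :
    False := by
  classical
  obtain ⟨f, w, C, hf, hw⟩ := h
  refine not_lattices (F := f '' (F : Set G)) (F.finite_toSet.image f) (fun n => f (w n))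
    (fun n => (hw n).1) C (fun n => (hw n).2) fun n => ?_
  obtain ⟨a, ha, k, hk⟩ := hF (w n)
  refine ⟨f a, Set.mem_image_of_mem f ha, k, ?_⟩
  show f (w n) = _
  rw [hom_conj hf hk, hf.2]
  push_cast
  rfl

theorem convex_of_flat {G : Type} [Group G] (h : HasPeriodicFlat G) : HasConvexSequence G := by
  obtain ⟨Y, _, _, _, V, _, _, _, i, u, v, x, y, hi, huv, hx, hy⟩ := h
  have key : ∀ n : ℕ, stab (i 0) (x ^ n * y) = ‖n • u + v‖ := by
    intro n
    have h1 : ∀ (n : ℕ) (e : V), x ^ n • i e = i (e + n • u) := by
      intro n
      induction n with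
      | zero => intro e; simp
      | succ n ih =>
        intro e
        rw [pow_succ', mul_smul, ih, hx]
        congr 1
        rw [add_smul, one_smul, add_assoc]
    have h2 : ∀ e, (x ^ n * y) • i e = i (e + (n • u + v)) := by
      intro e
      rw [mul_smul, hy, h1]
      congr 1
      abel
    have h3 : ∀ (k : ℕ) (e : V), (x ^ n * y) ^ k • i e = i (e + k • (n • u + v)) := by
      intro k
      induction k with
      | zero => intro e; simp
      | succ k ih =>
        intro e
        rw [pow_succ', mul_smul, ih, h2]
        congr 1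
        rw [add_smul k, one_smul, add_assoc]
    refine tendsto_nhds_unique (tendsto_stab (i 0) (x ^ n * y)) ?_
    refine tendsto_const_nhds.congr' ?_
    filter_upwards [eventually_gt_atTop 0] with k hk
    have hk' : (k : ℝ) ≠ 0 := by positivity
    rw [h3, hi.dist_eq, zero_add, dist_zero_left, ← Nat.cast_smul_eq_nsmul ℝ k (n • u + v),
      norm_smul, Real.norm_natCast]
    field_simp
  refine ⟨stab (i 0), fun n => x ^ n * y, ‖u‖,
    ⟨fun g h => stab_conj (i 0) h g, fun g n => stab_pow (i 0) g n⟩, fun n => ⟨?_, ?_⟩⟩
  · simp only [key]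
    exact norm_strict huv n
  · simp only [key]
    have h1 : (n + 1) • u + v = (n • u + v) + u := by
      rw [add_smul, one_smul]; abel
    rw [h1]
    have := norm_add_le (n • u + v) u
    linarith

theorem not_flat {G : Type} [Group G] {F : Finset G} (hF : Cov F) (h : HasPeriodicFlat G) :
    False :=
  not_convex hF (convex_of_flat h)

end Vale.Agent.P216.R2.H842.C
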