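import Vale.Agent.P216.R2.H983.Defs

/-!
P216: free products: two class functions which are additive along the powers of two elements.
-/

namespace Vale.Agent.P216.R2.H842.C

open Vale.Agent.P216.H983 Filter Topology Monoid

/-- `G` maps onto a free product of groups, one factor with an element `a ≠ 1` and another factor
with two different elements `b, b' ≠ 1` -/
def HasFreeProduct (G : Type) [Group G] : Prop :=
  ∃ (ι : Type) (M : ι → Type) (_ : ∀ i, Group (M i)) (π : G →* CoprodI M) (i j : ι) (a : M i)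
    (b b' : M j), Function.Surjective π ∧ i ≠ j ∧ a ≠ 1 ∧ b ≠ 1 ∧ b' ≠ 1 ∧ b ≠ b'

section Lim

variable {G : Type} [Group G] {L : G → ℝ}

theorem sub_of (hL : ∀ g h, L (g * h) ≤ L g + L h) (g : G) : Subadditive fun n => L (g ^ n) :=
  fun m n => by
    show L (g ^ (m + n)) ≤ _
    rw [pow_add]
    exact hL _ _

/-- the limit of `L (g ^ n) / n` -/
noncomputable def lm (hL : ∀ g h, L (g * h) ≤ L g + L h) (g : G) : ℝ := (sub_of hL g).lim

theorem tendsto_lm (hL : ∀ g h, L (g * h) ≤ L g + L h) (h0 : ∀ g, 0 ≤ L g) (g : G) :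
    Tendsto (fun n : ℕ => L (g ^ n) / n) atTop (𝓝 (lm hL g)) := by
  refine (sub_of hL g).tendsto_lim ⟨0, ?_⟩
  rintro _ ⟨n, rfl⟩
  have := h0 (g ^ n)
  positivity

theorem lm_hom (hL : ∀ g h, L (g * h) ≤ L g + L h) (h0 : ∀ g, 0 ≤ L g) :
    IsHomogeneous (lm hL) := by
  constructor
  · intro g x
    refine tendsto_nhds_unique (tendsto_lm hL h0 (x * g * x⁻¹)) ?_
    have h1 := tendsto_lm hL h0 g
    have h2 : Tendsto (fun n : ℕ => (L ((x * g * x⁻¹) ^ n) - L (g ^ n)) / n)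
        atTop (𝓝 0) := by
      refine squeeze_zero_norm (a := fun n : ℕ => (L x + L x⁻¹) / n) (fun n => ?_)
        (tendsto_const_div_atTop_nhds_zero_nat _)
      rw [norm_div, Real.norm_natCast, Real.norm_eq_abs]
      gcongr
      rw [conj_pow]
      have h3 := hL (x * g ^ n) x⁻¹
      have h4 := hL x (g ^ n)
      have h5 := hL (x⁻¹ * (x * g ^ n * x⁻¹)) x
      have h6 := hL x⁻¹ (x * g ^ n * x⁻¹)
      have h7 : x⁻¹ * (x * g ^ n * x⁻¹) * x = g ^ n := by group
      rw [h7] at h5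
      rw [abs_le]
      constructor <;> linarith
    have h6 := h2.add h1
    rw [zero_add] at h6
    refine h6.congr fun n => ?_
    rw [← add_div]
    congr 1
    ring
  · intro g k
    rcases Nat.eq_zero_or_pos k with rfl | hk
    · refine tendsto_nhds_unique (tendsto_lm hL h0 (g ^ 0)) ?_
      simp only [pow_zero, one_pow, Nat.cast_zero, zero_mul]
      exact tendsto_const_div_atTop_nhds_zero_nat _
    · refine tendsto_nhds_unique (tendsto_lm hL h0 (g ^ k)) ?_
      have h1 := (tendsto_lm hL h0 g).comp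
        (tendsto_id.const_mul_atTop' hk : Tendsto (fun n : ℕ => k * n) atTop atTop)
      have h2 := h1.const_mul (k : ℝ)
      refine h2.congr' ?_
      filter_upwards [eventually_gt_atTop 0] with n hn
      have hk' : (k : ℝ) ≠ 0 := by positivity
      have hn' : (n : ℝ) ≠ 0 := by positivity
      simp only [Function.comp_apply]
      rw [← pow_mul]
      push_cast
      field_simp

theorem lm_eq (hL : ∀ g h, L (g * h) ≤ L g + L h) (h0 : ∀ g, 0 ≤ L g) {g : G} {s : ℝ}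
    (h : ∀ n : ℕ, L (g ^ n) = n * s) : lm hL g = s := by
  refine tendsto_nhds_unique (tendsto_lm hL h0 g) (tendsto_const_nhds.congr' ?_)
  filter_upwards [eventually_gt_atTop 0] with n hn
  have hn' : (n : ℝ) ≠ 0 := by positivity
  rw [h]
  field_simp

end Lim

section Free

/-- the sum of the weights of the letters of a reduced word -/
noncomputable def wt {ι : Type} {M : ι → Type} [∀ i, Group (M i)] (c : (Σ i, M i) → ℝ)
    (w : CoprodI.Word M) : ℝ := (w.toList.map c).sum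

variable {ι : Type} {M : ι → Type} [∀ i, Group (M i)] [DecidableEq ι] [∀ i, DecidableEq (M i)]
  {c : (Σ i, M i) → ℝ}

omit [DecidableEq ι] [∀ i, DecidableEq (M i)] in
theorem wt_cons {i : ι} (m : M i) (w : CoprodI.Word M) (h1 : w.fstIdx ≠ some i) (h2 : m ≠ 1) :
    wt c (CoprodI.Word.cons m w h1 h2) = c ⟨i, m⟩ + wt c w := by
  simp [wt, CoprodI.Word.cons]

omit [DecidableEq ι] [∀ i, DecidableEq (M i)] in
theorem wt_nonneg (hc : ∀ s, 1 ≤ c s ∧ c s ≤ 2) (w : CoprodI.Word M) : 0 ≤ wt c w := by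
  unfold wt
  apply List.sum_nonneg
  intro x hx
  obtain ⟨s, -, rfl⟩ := List.mem_map.1 hx
  linarith [(hc s).1]

omit [DecidableEq ι] in
theorem wt_rcons {i : ι} (p : CoprodI.Word.Pair M i) :
    wt c (CoprodI.Word.rcons p) = (if p.head = 1 then 0 else c ⟨i, p.head⟩) + wt c p.tail := by
  unfold CoprodI.Word.rcons
  split_ifs with h
  · rw [zero_add]
  · rw [wt_cons]

theorem wt_of_smul (hc : ∀ s, 1 ≤ c s ∧ c s ≤ 2) {i : ι} (m : M i) (w : CoprodI.Word M) :
    wt c (CoprodI.of m • w) ≤ c ⟨i, m⟩ + wt c w := by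
  have h1 : w = CoprodI.Word.rcons (CoprodI.Word.equivPair i w) :=
    ((CoprodI.Word.equivPair i).symm_apply_apply w).symm
  have h2 : wt c w = (if (CoprodI.Word.equivPair i w).head = 1 then 0 else
      c ⟨i, (CoprodI.Word.equivPair i w).head⟩) + wt c (CoprodI.Word.equivPair i w).tail := by
    conv_lhs => rw [h1]
    exact wt_rcons _
  rw [CoprodI.Word.of_smul_def, wt_rcons, h2]
  simp only
  have h3 := hc ⟨i, m⟩
  split_ifs with h4 h5 h5
  · linarith
  · linarith [(hc ⟨i, (CoprodI.Word.equivPair i w).head⟩).1]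
  · rw [h5, mul_one]
    linarith
  · linarith [(hc ⟨i, (CoprodI.Word.equivPair i w).head⟩).1,
      (hc ⟨i, m * (CoprodI.Word.equivPair i w).head⟩).2]

theorem wt_prod_smul (hc : ∀ s, 1 ≤ c s ∧ c s ≤ 2) (v w : CoprodI.Word M) :
    wt c (v.prod • w) ≤ wt c v + wt c w := by
  induction v using CoprodI.Word.consRecOn with
  | empty => simp [wt]
  | cons i m v h1 h2 ih =>
    rw [CoprodI.Word.prod_cons, mul_smul, wt_cons]
    have := wt_of_smul hc m (v.prod • w)
    linarith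

/-- the length of an element of the free product -/
noncomputable def len (c : (Σ i, M i) → ℝ) (g : CoprodI M) : ℝ :=
  wt c (g • (CoprodI.Word.empty : CoprodI.Word M))

theorem prod_smul_empty (g : CoprodI M) :
    (g • (CoprodI.Word.empty : CoprodI.Word M)).prod = g := by
  rw [CoprodI.Word.prod_smul, CoprodI.Word.prod_empty, mul_one]

theorem len_mul (hc : ∀ s, 1 ≤ c s ∧ c s ≤ 2) (g h : CoprodI M) :
    len c (g * h) ≤ len c g + len c h := by
  unfold len
  have := wt_prod_smul hc (g • CoprodI.Word.empty) (h • CoprodI.Word.empty)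
  rw [prod_smul_empty] at this
  rwa [mul_smul]

/-- alternating products do not cancel -/
theorem wt_pair {i j : ι} (hij : i ≠ j) {a : M i} {b : M j} (ha : a ≠ 1) (hb : b ≠ 1)
    (w : CoprodI.Word M) (hw : w.fstIdx ≠ some j) :
    wt c ((CoprodI.of a * CoprodI.of b) • w) = c ⟨i, a⟩ + c ⟨j, b⟩ + wt c w ∧
      ((CoprodI.of a * CoprodI.of b) • w).fstIdx ≠ some j := by
  have h1 : CoprodI.of b • w = CoprodI.Word.cons b w hw hb := CoprodI.Word.cons_eq_smul.symm
  have h2 : (CoprodI.Word.cons b w hw hb).fstIdx ≠ some i := by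
    rw [CoprodI.Word.fstIdx_cons]
    intro h
    exact hij (Option.some.inj h).symm
  have h3 : CoprodI.of a • CoprodI.Word.cons b w hw hb =
      CoprodI.Word.cons a (CoprodI.Word.cons b w hw hb) h2 ha := CoprodI.Word.cons_eq_smul.symm
  rw [mul_smul, h1, h3]
  refine ⟨?_, ?_⟩
  · rw [wt_cons, wt_cons]
    ring
  · rw [CoprodI.Word.fstIdx_cons]
    intro h
    exact hij (Option.some.inj h)

/-- `g` acts like a reduced word of weight `s` on the words which do not begin in the factor `j` -/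
def Good (c : (Σ i, M i) → ℝ) (j : ι) (g : CoprodI M) (s : ℝ) : Prop :=
  ∀ w : CoprodI.Word M, w.fstIdx ≠ some j → wt c (g • w) = s + wt c w ∧
    (g • w).fstIdx ≠ some j

theorem Good.one (j : ι) : Good c j 1 0 := fun w hw => by
  rw [one_smul, zero_add]
  exact ⟨rfl, hw⟩

theorem Good.mul {j : ι} {g h : CoprodI M} {s t : ℝ} (hg : Good c j g s) (hh : Good c j h t) :
    Good c j (g * h) (s + t) := fun w hw => by
  obtain ⟨h1, h2⟩ := hh w hw
  obtain ⟨h3, h4⟩ := hg _ h2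
  rw [mul_smul]
  exact ⟨by rw [h3, h1]; ring, h4⟩

theorem Good.pow {j : ι} {g : CoprodI M} {s : ℝ} (hg : Good c j g s) (n : ℕ) :
    Good c j (g ^ n) (n * s) := by
  induction n with
  | zero => simpa using Good.one j
  | succ n ih =>
    rw [pow_succ]
    have := ih.mul hg
    convert this using 1
    push_cast
    ring

theorem Good.len {j : ι} {g : CoprodI M} {s : ℝ} (hg : Good c j g s) : len c g = s := by
  have h1 := (hg CoprodI.Word.empty (by simp [CoprodI.Word.fstIdx])).1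
  unfold C.len
  rw [h1]
  simp [wt]

/-- the length of the image of an element -/
noncomputable def lenAt {G : Type} [Group G] (π : G →* CoprodI M) (c : (Σ i, M i) → ℝ) (x : G) :
    ℝ :=
  C.len c (π x)

theorem lenAt_mul {G : Type} [Group G] (π : G →* CoprodI M) (hc : ∀ s, 1 ≤ c s ∧ c s ≤ 2)
    (x y : G) : lenAt π c (x * y) ≤ lenAt π c x + lenAt π c y := by
  unfold lenAt
  rw [map_mul]
  exact len_mul hc _ _

theorem lenAt_nonneg {G : Type} [Group G] (π : G →* CoprodI M) (hc : ∀ s, 1 ≤ c s ∧ c s ≤ 2)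
    (x : G) : 0 ≤ lenAt π c x := wt_nonneg hc _

theorem lm_lenAt {G : Type} [Group G] (π : G →* CoprodI M) (hc : ∀ s, 1 ≤ c s ∧ c s ≤ 2)
    {j : ι} {x : G} {s : ℝ} (hx : Good c j (π x) s) : lm (lenAt_mul π hc) x = s := by
  refine lm_eq (lenAt_mul π hc) (lenAt_nonneg π hc) fun n => ?_
  unfold lenAt
  rw [map_pow]
  exact (hx.pow n).len

end Free

theorem rich_of_free {G : Type} [Group G] (h : HasFreeProduct G) : Rich G := by
  classical
  obtain ⟨ι, M, _, π, i, j, a, b, b', hπ, hij, ha, hb, hb', hbb⟩ := h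
  obtain ⟨g, hg⟩ := hπ (CoprodI.of a * CoprodI.of b)
  obtain ⟨h, hh⟩ := hπ (CoprodI.of a * CoprodI.of b')
  obtain ⟨c₁, hc₁⟩ : ∃ c₁ : (Σ i, M i) → ℝ, c₁ = fun _ => 1 := ⟨_, rfl⟩
  obtain ⟨c₂, hc₂⟩ : ∃ c₂ : (Σ i, M i) → ℝ, c₂ = fun s => if s = ⟨j, b'⟩ then 2 else 1 :=
    ⟨_, rfl⟩
  have b1 : ∀ s : Σ i, M i, (1 : ℝ) ≤ c₁ s ∧ c₁ s ≤ 2 := fun s => by
    rw [hc₁]
    norm_num
  have b2 : ∀ s : Σ i, M i, (1 : ℝ) ≤ c₂ s ∧ c₂ s ≤ 2 := fun s => by
    rw [hc₂]
    simp only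
    split_ifs <;> norm_num
  have g1 : ∀ c : (Σ i, M i) → ℝ, Good c j (π g) (c ⟨i, a⟩ + c ⟨j, b⟩) := fun c w hw => by
    rw [hg]
    exact wt_pair hij ha hb w hw
  have g2 : ∀ c : (Σ i, M i) → ℝ, Good c j (π h) (c ⟨i, a⟩ + c ⟨j, b'⟩) := fun c w hw => by
    rw [hh]
    exact wt_pair hij ha hb' w hw
  have vp : ∀ (c : (Σ i, M i) → ℝ) (hc : ∀ s, 1 ≤ c s ∧ c s ≤ 2) (p q : ℕ),
      lm (lenAt_mul π hc) (g ^ p * h ^ q) =
        p * (c ⟨i, a⟩ + c ⟨j, b⟩) + q * (c ⟨i, a⟩ + c ⟨j, b'⟩) := fun c hc p q => by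
    refine lm_lenAt π hc (j := j) ?_
    rw [map_mul, map_pow, map_pow]
    exact ((g1 c).pow p).mul ((g2 c).pow q)
  have vg : ∀ (c : (Σ i, M i) → ℝ) (hc : ∀ s, 1 ≤ c s ∧ c s ≤ 2),
      lm (lenAt_mul π hc) g = c ⟨i, a⟩ + c ⟨j, b⟩ := fun c hc => lm_lenAt π hc (g1 c)
  have vh : ∀ (c : (Σ i, M i) → ℝ) (hc : ∀ s, 1 ≤ c s ∧ c s ≤ 2),
      lm (lenAt_mul π hc) h = c ⟨i, a⟩ + c ⟨j, b'⟩ := fun c hc => lm_lenAt π hc (g2 c)
  refine Or.inr (Or.inr (Or.inl ⟨lm (lenAt_mul π b1), lm (lenAt_mul π b2), g, h, 0,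
    lm_hom (lenAt_mul π b1) (lenAt_nonneg π b1), lm_hom (lenAt_mul π b2) (lenAt_nonneg π b2),
    fun p q => ⟨?_, ?_⟩, ?_⟩))
  · rw [vp _ b1, vg _ b1, vh _ b1, sub_self, abs_zero]
  · rw [vp _ b2, vg _ b2, vh _ b2, sub_self, abs_zero]
  · rw [vg _ b1, vh _ b1, vg _ b2, vh _ b2]
    have e1 : c₂ ⟨i, a⟩ = 1 := by
      rw [hc₂]
      simp only
      rw [if_neg]
      intro h0
      exact hij (congrArg Sigma.fst h0)
    have e2 : c₂ ⟨j, b⟩ = 1 := by
      rw [hc₂]
      simp only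
      rw [if_neg]
      intro h0
      exact hbb (eq_of_heq (Sigma.ext_iff.1 h0).2)
    have e3 : c₂ ⟨j, b'⟩ = 2 := by
      rw [hc₂]
      simp
    rw [e1, e2, e3, hc₁]
    norm_num

end Vale.Agent.P216.R2.H842.C
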